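import Vale.Agent.Helper6.KTV.Lipschitz

/-!
Three log-concave sites with conserved sum: the variance of a sum of functions of the
single sites is at most twice the sum of their variances.
-/

namespace KTV
namespace ThreeSite

open Finset

theorem Kop_pair (μ : Fin 3 → ℕ → ℝ) (M : ℕ) (F H : (Fin 3 → ℕ) → ℝ) :
    ∑ ν ∈ Tset M, wt μ ν * Kop μ M F ν * H ν
      = (∑ r, ∑ ν ∈ Tset M, wt μ ν * cEr μ M r F ν * H ν) / 3 := by
  rw [sum_comm, sum_div]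
  apply sum_congr rfl
  intro ν _
  unfold Kop
  rw [mul_div_assoc', div_mul_eq_mul_div, mul_sum, sum_mul]

theorem Kop_pair' (μ : Fin 3 → ℕ → ℝ) (M : ℕ) (F H : (Fin 3 → ℕ) → ℝ) :
    ∑ ν ∈ Tset M, wt μ ν * F ν * Kop μ M H ν
      = (∑ r, ∑ ν ∈ Tset M, wt μ ν * F ν * cEr μ M r H ν) / 3 := by
  rw [sum_comm, sum_div]
  apply sum_congr rfl
  intro ν _
  unfold Kop
  rw [mul_div_assoc', mul_sum]

theorem Kop_symm (μ : Fin 3 → ℕ → ℝ) (M : ℕ) (F H : (Fin 3 → ℕ) → ℝ) :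
    ∑ ν ∈ Tset M, wt μ ν * Kop μ M F ν * H ν = ∑ ν ∈ Tset M, wt μ ν * F ν * Kop μ M H ν := by
  rw [Kop_pair, Kop_pair']
  congr 1
  apply sum_congr rfl
  intro r _
  exact cE_symm (Tset M) (wt μ) (fun ν => ν r) F H

theorem Kop_sum (μ : Fin 3 → ℕ → ℝ) (hμ : ∀ r k, 0 ≤ μ r k) (M : ℕ) (F : (Fin 3 → ℕ) → ℝ) :
    ∑ ν ∈ Tset M, wt μ ν * Kop μ M F ν = ∑ ν ∈ Tset M, wt μ ν * F ν := by
  have h := Kop_pair μ M F (fun _ => 1)
  simp only [mul_one] at h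
  rw [h]
  have e : ∀ r ∈ (univ : Finset (Fin 3)), ∑ ν ∈ Tset M, wt μ ν * cEr μ M r F ν
      = ∑ ν ∈ Tset M, wt μ ν * F ν := by
    intro r _
    exact cE_sum (Tset M) (wt μ) (fun ν => ν r) (fun ν _ => wt_nonneg hμ ν) F
  rw [sum_congr rfl e]
  simp

/-- weighted Cauchy-Schwarz inequality -/
theorem wcs (μ : Fin 3 → ℕ → ℝ) (hμ : ∀ r k, 0 ≤ μ r k) (M : ℕ) (g h : (Fin 3 → ℕ) → ℝ) :
    (∑ ν ∈ Tset M, wt μ ν * g ν * h ν) ^ 2
      ≤ (∑ ν ∈ Tset M, wt μ ν * g ν * g ν) * (∑ ν ∈ Tset M, wt μ ν * h ν * h ν) := by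
  apply sum_sq_le_sum_mul_sum_of_sq_le_mul
  · intro ν _
    have := wt_nonneg hμ ν
    nlinarith [mul_self_nonneg (g ν)]
  · intro ν _
    have := wt_nonneg hμ ν
    nlinarith [mul_self_nonneg (h ν)]
  · intro ν _
    apply le_of_eq
    ring

/-- the averaged conditional expectation contracts functions of zero weighted sum -/
theorem Kop_contract (μ : Fin 3 → ℕ → ℝ) (hμ : ∀ r k, 0 ≤ μ r k)
    (hlc : ∀ r k, μ r k * μ r (k + 2) ≤ μ r (k + 1) ^ 2)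
    (hint : ∀ r i j k, i ≤ j → j ≤ k → 0 < μ r i → 0 < μ r k → 0 < μ r j)
    (M : ℕ) (F : (Fin 3 → ℕ) → ℝ) (h0 : ∑ ν ∈ Tset M, wt μ ν * F ν = 0) :
    ∑ ν ∈ Tset M, wt μ ν * Kop μ M F ν * Kop μ M F ν
      ≤ 4 / 9 * ∑ ν ∈ Tset M, wt μ ν * F ν * F ν := by
  set Kit : ℕ → (Fin 3 → ℕ) → ℝ := fun t => (Kop μ M)^[t] F with hKit
  have hsucc : ∀ t, Kit (t + 1) = Kop μ M (Kit t) := by
    intro t
    simp only [hKit]
    exact Function.iterate_succ_apply' _ _ _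
  set b : ℕ → ℝ := fun t => ∑ ν ∈ Tset M, wt μ ν * Kit t ν * Kit t ν with hb
  set L0 : ℝ := 2 * ∑ ν ∈ Tset M, |F ν| with hL0
  have hL0nn : 0 ≤ L0 := by
    simp only [hL0]
    have : 0 ≤ ∑ ν ∈ Tset M, |F ν| := sum_nonneg fun ν _ => abs_nonneg _
    linarith
  set W : ℝ := ∑ ν ∈ Tset M, wt μ ν with hW
  have hmean : ∀ t, ∑ ν ∈ Tset M, wt μ ν * Kit t ν = 0 := by
    intro t
    induction t with
    | zero => simpa [hKit] using h0
    | succ t ih => rw [hsucc, Kop_sum μ hμ]; exact ih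
  have hlip0 : Lip μ M F L0 := by
    intro ν ν' hν hν' _
    have h1 : |F ν| ≤ ∑ ν ∈ Tset M, |F ν| :=
      single_le_sum (f := fun ν => |F ν|) (fun ν _ => abs_nonneg _) hν.1
    have h2 : |F ν'| ≤ ∑ ν ∈ Tset M, |F ν| :=
      single_le_sum (f := fun ν => |F ν|) (fun ν _ => abs_nonneg _) hν'.1
    calc |F ν - F ν'| ≤ |F ν| + |F ν'| := abs_sub _ _
      _ ≤ L0 := by simp only [hL0]; linarith
  have hlip : ∀ t, Lip μ M (Kit t) ((2 / 3) ^ t * L0) := by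
    intro t
    induction t with
    | zero => simpa [hKit] using hlip0
    | succ t ih =>
      rw [hsucc]
      have := lip_K μ hμ hlc hint M (Kit t) ((2 / 3) ^ t * L0) ih
      have e : (2 / 3 : ℝ) ^ (t + 1) * L0 = 2 / 3 * ((2 / 3) ^ t * L0) := by ring
      rw [e]
      exact this
  have hbnn : ∀ t, 0 ≤ b t := by
    intro t
    apply sum_nonneg
    intro ν _
    have := wt_nonneg hμ ν
    nlinarith [mul_self_nonneg (Kit t ν)]
  have hconv : ∀ t, b (t + 1) ^ 2 ≤ b t * b (t + 2) := by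
    intro t
    have e : b (t + 1) = ∑ ν ∈ Tset M, wt μ ν * Kit t ν * Kit (t + 2) ν := by
      simp only [hb]
      rw [hsucc (t + 1), hsucc t]
      exact Kop_symm μ M (Kit t) (Kop μ M (Kit t))
    rw [e]
    exact wcs μ hμ M (Kit t) (Kit (t + 2))
  have hC : ∀ t, b t ≤ W * ((M : ℝ) * L0) ^ 2 * (4 / 9) ^ t := by
    intro t
    have hLt : 0 ≤ (2 / 3 : ℝ) ^ t * L0 := mul_nonneg (by positivity) hL0nn
    have hpt : ∀ ν ∈ Tset M, wt μ ν * Kit t ν * Kit t ν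
        ≤ wt μ ν * ((M : ℝ) * ((2 / 3) ^ t * L0)) ^ 2 := by
      intro ν hν
      rcases (wt_nonneg hμ ν).lt_or_eq with hpos | hzero
      · have hs := sup_bound μ hμ hint M (Kit t) ((2 / 3) ^ t * L0) hLt (hlip t) (hmean t)
          ⟨hν, hpos⟩
        have hsq : Kit t ν * Kit t ν ≤ ((M : ℝ) * ((2 / 3) ^ t * L0)) ^ 2 := by
          rw [← sq, ← sq_abs (Kit t ν)]
          exact pow_le_pow_left₀ (abs_nonneg _) hs 2
        calc wt μ ν * Kit t ν * Kit t ν = wt μ ν * (Kit t ν * Kit t ν) := by ring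
          _ ≤ wt μ ν * ((M : ℝ) * ((2 / 3) ^ t * L0)) ^ 2 :=
            mul_le_mul_of_nonneg_left hsq (le_of_lt hpos)
      · rw [← hzero]; simp
    have e : ((2 / 3 : ℝ) ^ t) ^ 2 = (4 / 9) ^ t := by
      rw [← pow_mul, mul_comm, pow_mul]; norm_num
    calc b t ≤ ∑ ν ∈ Tset M, wt μ ν * ((M : ℝ) * ((2 / 3) ^ t * L0)) ^ 2 := sum_le_sum hpt
      _ = W * ((M : ℝ) * ((2 / 3) ^ t * L0)) ^ 2 := by rw [← sum_mul]
      _ = W * ((M : ℝ) * L0) ^ 2 * ((2 / 3 : ℝ) ^ t) ^ 2 := by ring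
      _ = W * ((M : ℝ) * L0) ^ 2 * (4 / 9) ^ t := by rw [e]
  have := pow_trick b hbnn hconv (W * ((M : ℝ) * L0) ^ 2) (4 / 9) (by norm_num) hC
  have e1 : b 1 = ∑ ν ∈ Tset M, wt μ ν * Kop μ M F ν * Kop μ M F ν := by
    simp [hb, hKit]
  have e0 : b 0 = ∑ ν ∈ Tset M, wt μ ν * F ν * F ν := by
    simp [hb, hKit]
  rw [e1, e0] at this
  exact this

/-- core inequality in terms of centred functions -/
theorem centred_core (μ : Fin 3 → ℕ → ℝ) (hμ : ∀ r k, 0 ≤ μ r k)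
    (hlc : ∀ r k, μ r k * μ r (k + 2) ≤ μ r (k + 1) ^ 2)
    (hint : ∀ r i j k, i ≤ j → j ≤ k → 0 < μ r i → 0 < μ r k → 0 < μ r j)
    (M : ℕ) (G : Fin 3 → ℕ → ℝ)
    (hG : ∀ r, ∑ ν ∈ Tset M, wt μ ν * G r (ν r) = 0) :
    ∑ ν ∈ Tset M, wt μ ν * (∑ r, G r (ν r)) * (∑ r, G r (ν r))
      ≤ 2 * ∑ r, ∑ ν ∈ Tset M, wt μ ν * G r (ν r) * G r (ν r) := by
  set F : (Fin 3 → ℕ) → ℝ := fun ν => ∑ r, G r (ν r) with hF
  have hw : ∀ ν ∈ Tset M, 0 ≤ wt μ ν := fun ν _ => wt_nonneg hμ ν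
  have hF0 : ∑ ν ∈ Tset M, wt μ ν * F ν = 0 := by
    simp only [hF, mul_sum]
    rw [sum_comm]
    exact sum_eq_zero fun r _ => hG r
  set N : ℝ := ∑ ν ∈ Tset M, wt μ ν * F ν * F ν with hN
  set c : Fin 3 → ℝ := fun r => ∑ ν ∈ Tset M, wt μ ν * cEr μ M r F ν * G r (ν r) with hc
  set P : Fin 3 → ℝ := fun r => ∑ ν ∈ Tset M, wt μ ν * cEr μ M r F ν * cEr μ M r F ν with hP
  set S : Fin 3 → ℝ := fun r => ∑ ν ∈ Tset M, wt μ ν * G r (ν r) * G r (ν r) with hS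
  have hNnn : 0 ≤ N := by
    apply sum_nonneg
    intro ν _
    have := wt_nonneg hμ ν
    nlinarith [mul_self_nonneg (F ν)]
  have hPnn : ∀ r, 0 ≤ P r := by
    intro r
    apply sum_nonneg
    intro ν _
    have := wt_nonneg hμ ν
    nlinarith [mul_self_nonneg (cEr μ M r F ν)]
  have hSnn : ∀ r, 0 ≤ S r := by
    intro r
    apply sum_nonneg
    intro ν _
    have := wt_nonneg hμ ν
    nlinarith [mul_self_nonneg (G r (ν r))]
  have hNc : N = ∑ r, c r := by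
    have e1 : N = ∑ r, ∑ ν ∈ Tset M, wt μ ν * F ν * G r (ν r) := by
      rw [sum_comm]
      simp only [hN]
      apply sum_congr rfl
      intro ν _
      rw [← mul_sum]
    rw [e1]
    apply sum_congr rfl
    intro r _
    exact (cE_comp (Tset M) (wt μ) (fun ν => ν r) hw F (G r)).symm
  have hcs : ∀ r, c r ^ 2 ≤ P r * S r := by
    intro r
    exact wcs μ hμ M (cEr μ M r F) (fun ν => G r (ν r))
  have hPsum : ∑ r, P r ≤ 2 * N := by
    set J : ℝ := ∑ ν ∈ Tset M, wt μ ν * Kop μ M F ν * F ν with hJ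
    have e1 : ∑ r, P r = 3 * J := by
      have h1 : ∀ r ∈ (univ : Finset (Fin 3)),
          P r = ∑ ν ∈ Tset M, wt μ ν * cEr μ M r F ν * F ν := by
        intro r _
        exact cE_sq (Tset M) (wt μ) (fun ν => ν r) hw F
      rw [sum_congr rfl h1, hJ, Kop_pair]
      ring
    have e2 : J ^ 2 ≤ (∑ ν ∈ Tset M, wt μ ν * Kop μ M F ν * Kop μ M F ν) * N :=
      wcs μ hμ M (Kop μ M F) F
    have e3 := Kop_contract μ hμ hlc hint M F hF0
    have e4 : J ^ 2 ≤ (4 / 9 * N) * N := le_trans e2 (mul_le_mul_of_nonneg_right e3 hNnn)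
    have e5 : J ≤ 2 / 3 * N := by
      by_contra hcon
      rw [not_le] at hcon
      nlinarith
    rw [e1]
    linarith
  have hterm : ∀ r, 2 * c r ≤ P r / 2 + 2 * S r := by
    intro r
    by_contra hcon
    rw [not_le] at hcon
    have h1 := hcs r
    have h2 := hPnn r
    have h3 := hSnn r
    nlinarith [sq_nonneg (P r / 2 - 2 * S r)]
  have hfin : 2 * N ≤ (∑ r, P r) / 2 + 2 * ∑ r, S r := by
    rw [hNc, mul_sum, sum_div, mul_sum, ← sum_add_distrib]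
    exact sum_le_sum fun r _ => hterm r
  show N ≤ 2 * ∑ r, S r
  linarith

theorem var_shift (T : Finset (Fin 3 → ℕ)) (w g : (Fin 3 → ℕ) → ℝ) (m : ℝ)
    (hm : (∑ ν ∈ T, w ν) * m = ∑ ν ∈ T, w ν * g ν) :
    (∑ ν ∈ T, w ν) * (∑ ν ∈ T, w ν * g ν ^ 2) - (∑ ν ∈ T, w ν * g ν) ^ 2
      = (∑ ν ∈ T, w ν) * (∑ ν ∈ T, w ν * (g ν - m) * (g ν - m)) := by
  have e : ∑ ν ∈ T, w ν * (g ν - m) * (g ν - m)
      = (∑ ν ∈ T, w ν * g ν ^ 2) - 2 * m * (∑ ν ∈ T, w ν * g ν) + m ^ 2 * (∑ ν ∈ T, w ν) := by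
    rw [mul_sum, mul_sum, ← sum_sub_distrib, ← sum_add_distrib]
    apply sum_congr rfl
    intro ν _
    ring
  rw [e, ← hm]
  ring

theorem core (μ : Fin 3 → ℕ → ℝ) (hμ : ∀ r k, 0 ≤ μ r k)
    (hlc : ∀ r k, μ r k * μ r (k + 2) ≤ μ r (k + 1) ^ 2)
    (hint : ∀ r i j k, i ≤ j → j ≤ k → 0 < μ r i → 0 < μ r k → 0 < μ r j)
    (M : ℕ) (G : Fin 3 → ℕ → ℝ) :
    (∑ ν ∈ Tset M, wt μ ν) * (∑ ν ∈ Tset M, wt μ ν * (∑ r, G r (ν r)) ^ 2)
        - (∑ ν ∈ Tset M, wt μ ν * (∑ r, G r (ν r))) ^ 2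
      ≤ 2 * ∑ r, ((∑ ν ∈ Tset M, wt μ ν) * (∑ ν ∈ Tset M, wt μ ν * (G r (ν r)) ^ 2)
        - (∑ ν ∈ Tset M, wt μ ν * G r (ν r)) ^ 2) := by
  set W : ℝ := ∑ ν ∈ Tset M, wt μ ν with hW
  have hWnn : 0 ≤ W := sum_nonneg fun ν _ => wt_nonneg hμ ν
  rcases hWnn.lt_or_eq with hpos | hzero
  · set m : Fin 3 → ℝ := fun r => (∑ ν ∈ Tset M, wt μ ν * G r (ν r)) / W with hm
    have hmr : ∀ r, W * m r = ∑ ν ∈ Tset M, wt μ ν * G r (ν r) := by
      intro r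
      simp only [hm]
      field_simp
    set G' : Fin 3 → ℕ → ℝ := fun r k => G r k - m r with hG'
    have hG0 : ∀ r, ∑ ν ∈ Tset M, wt μ ν * G' r (ν r) = 0 := by
      intro r
      simp only [hG', mul_sub]
      rw [sum_sub_distrib, ← sum_mul, ← hmr r]
      simp only [hW]
      ring
    have hc := centred_core μ hμ hlc hint M G' hG0
    have hr : ∀ r, W * (∑ ν ∈ Tset M, wt μ ν * (G r (ν r)) ^ 2)
        - (∑ ν ∈ Tset M, wt μ ν * G r (ν r)) ^ 2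
        = W * ∑ ν ∈ Tset M, wt μ ν * G' r (ν r) * G' r (ν r) := by
      intro r
      exact var_shift (Tset M) (wt μ) (fun ν => G r (ν r)) (m r) (hmr r)
    have htot : W * (∑ ν ∈ Tset M, wt μ ν * (∑ r, G r (ν r)) ^ 2)
        - (∑ ν ∈ Tset M, wt μ ν * (∑ r, G r (ν r))) ^ 2
        = W * ∑ ν ∈ Tset M, wt μ ν * (∑ r, G' r (ν r)) * (∑ r, G' r (ν r)) := by
      have hmm : W * (∑ r, m r) = ∑ ν ∈ Tset M, wt μ ν * (∑ r, G r (ν r)) := by
        rw [mul_sum]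
        simp only [mul_sum]
        rw [sum_comm]
        exact sum_congr rfl fun r _ => hmr r
      have h1 := var_shift (Tset M) (wt μ) (fun ν => ∑ r, G r (ν r)) (∑ r, m r) hmm
      rw [h1]
      congr 1
      apply sum_congr rfl
      intro ν _
      have : ∑ r, G' r (ν r) = (∑ r, G r (ν r)) - ∑ r, m r := by
        simp only [hG']
        rw [sum_sub_distrib]
      rw [this]
    rw [htot, sum_congr rfl (fun r _ => hr r), ← mul_sum]
    have := mul_le_mul_of_nonneg_left hc hWnn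
    linarith
  · have hz : ∀ ν ∈ Tset M, wt μ ν = 0 := by
      have := (sum_eq_zero_iff_of_nonneg (fun ν _ => wt_nonneg hμ ν)).mp hzero.symm
      exact this
    have z1 : ∀ g : (Fin 3 → ℕ) → ℝ, ∑ ν ∈ Tset M, wt μ ν * g ν = 0 := by
      intro g
      exact sum_eq_zero fun ν hν => by rw [hz ν hν, zero_mul]
    rw [z1 (fun ν => (∑ r, G r (ν r)) ^ 2), z1 (fun ν => ∑ r, G r (ν r))]
    have z2 : ∀ r ∈ (univ : Finset (Fin 3)),
        W * (∑ ν ∈ Tset M, wt μ ν * (G r (ν r)) ^ 2) - (∑ ν ∈ Tset M, wt μ ν * G r (ν r)) ^ 2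
          = 0 := by
      intro r _
      rw [z1 (fun ν => (G r (ν r)) ^ 2), z1 (fun ν => G r (ν r))]
      simp
    rw [sum_congr rfl z2]
    simp

end ThreeSite

/-- Three log-concave sites with conserved sum: the variance of a sum of functions of
the single occupation numbers is at most twice the sum of their variances. -/
theorem macro_lemma (μ : Fin 3 → ℕ → ℝ) (hμ : ∀ r k, 0 ≤ μ r k)
    (hlc : ∀ r k, μ r k * μ r (k + 2) ≤ μ r (k + 1) ^ 2)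
    (hint : ∀ r i j k, i ≤ j → j ≤ k → 0 < μ r i → 0 < μ r k → 0 < μ r j)
    (M : ℕ) (G : Fin 3 → ℕ → ℝ) :
    let T := Finset.Nat.antidiagonalTuple 3 M
    let w : (Fin 3 → ℕ) → ℝ := fun ν => ∏ r, μ r (ν r)
    let var : ((Fin 3 → ℕ) → ℝ) → ℝ := fun F =>
      (∑ ν ∈ T, w ν) * (∑ ν ∈ T, w ν * F ν ^ 2) - (∑ ν ∈ T, w ν * F ν) ^ 2
    var (fun ν => ∑ r, G r (ν r)) ≤ 2 * ∑ r, var (fun ν => G r (ν r)) := by
  intro T w var
  exact ThreeSite.core μ hμ hlc hint M G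

end KTV
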