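import Mathlib

/-!
Weighted conditional expectation given a label on a finite set, and a
log-convexity argument for sequences.
-/

namespace KTV
namespace ThreeSite

open Finset

section CondExp

variable {X : Type*}

/-- weighted sum of `F` over the points of `T` with label value `a` -/
noncomputable def fsum (T : Finset X) (w : X → ℝ) (l : X → ℕ) (F : X → ℝ) (a : ℕ) : ℝ :=
  ∑ y ∈ T.filter (fun y => l y = a), w y * F y

/-- total weight of the points of `T` with label value `a` -/
noncomputable def fwt (T : Finset X) (w : X → ℝ) (l : X → ℕ) (a : ℕ) : ℝ :=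
  ∑ y ∈ T.filter (fun y => l y = a), w y

/-- weighted conditional expectation of `F` given the label `l` -/
noncomputable def cE (T : Finset X) (w : X → ℝ) (l : X → ℕ) (F : X → ℝ) (x : X) : ℝ :=
  fsum T w l F (l x) / fwt T w l (l x)

theorem fwt_nonneg (T : Finset X) (w : X → ℝ) (l : X → ℕ) (hw : ∀ x ∈ T, 0 ≤ w x) (a : ℕ) :
    0 ≤ fwt T w l a :=
  sum_nonneg fun y hy => hw y (mem_filter.mp hy).1

theorem fsum_eq_zero_of_fwt (T : Finset X) (w : X → ℝ) (l : X → ℕ) (hw : ∀ x ∈ T, 0 ≤ w x)
    (F : X → ℝ) (a : ℕ) (h : fwt T w l a = 0) : fsum T w l F a = 0 := by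
  unfold fwt at h
  unfold fsum
  have h0 := (sum_eq_zero_iff_of_nonneg (fun y hy => hw y (mem_filter.mp hy).1)).mp h
  apply sum_eq_zero
  intro y hy
  rw [h0 y hy, zero_mul]

theorem sum_cE_mul (T : Finset X) (w : X → ℝ) (l : X → ℕ) (F H : X → ℝ) :
    ∑ x ∈ T, w x * cE T w l F x * H x
      = ∑ a ∈ T.image l, fsum T w l F a * fsum T w l H a / fwt T w l a := by
  rw [← sum_fiberwise_of_maps_to (g := l) (t := T.image l) (fun x hx => mem_image_of_mem l hx)]
  apply sum_congr rfl
  intro a _
  have : ∀ x ∈ T.filter (fun y => l y = a),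
      w x * cE T w l F x * H x = (w x * H x) * (fsum T w l F a / fwt T w l a) := by
    intro x hx
    have hx' := (mem_filter.mp hx).2
    unfold cE
    rw [hx']
    ring
  rw [sum_congr rfl this, ← sum_mul]
  unfold fsum
  ring

theorem fsum_cE (T : Finset X) (w : X → ℝ) (l : X → ℕ) (hw : ∀ x ∈ T, 0 ≤ w x)
    (F : X → ℝ) (a : ℕ) : fsum T w l (cE T w l F) a = fsum T w l F a := by
  by_cases h : fwt T w l a = 0
  · rw [fsum_eq_zero_of_fwt T w l hw _ a h, fsum_eq_zero_of_fwt T w l hw _ a h]
  · have : ∀ y ∈ T.filter (fun y => l y = a),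
        w y * cE T w l F y = w y * (fsum T w l F a / fwt T w l a) := by
      intro y hy
      have hy' := (mem_filter.mp hy).2
      unfold cE
      rw [hy']
    have e : fsum T w l (cE T w l F) a = fwt T w l a * (fsum T w l F a / fwt T w l a) := by
      conv_lhs => unfold fsum
      rw [sum_congr rfl this, ← sum_mul]
      rfl
    rw [e]
    field_simp

theorem fsum_comp (T : Finset X) (w : X → ℝ) (l : X → ℕ) (G : ℕ → ℝ) (a : ℕ) :
    fsum T w l (fun x => G (l x)) a = fwt T w l a * G a := by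
  unfold fsum fwt
  rw [sum_mul]
  apply sum_congr rfl
  intro y hy
  show w y * G (l y) = w y * G a
  rw [(mem_filter.mp hy).2]

/-- self-adjointness -/
theorem cE_symm (T : Finset X) (w : X → ℝ) (l : X → ℕ) (F H : X → ℝ) :
    ∑ x ∈ T, w x * cE T w l F x * H x = ∑ x ∈ T, w x * F x * cE T w l H x := by
  have e : ∑ x ∈ T, w x * F x * cE T w l H x = ∑ x ∈ T, w x * cE T w l H x * F x := by
    apply sum_congr rfl; intro x _; ring
  rw [e, sum_cE_mul, sum_cE_mul]
  apply sum_congr rfl
  intro a _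
  ring

/-- the squared norm of the conditional expectation -/
theorem cE_sq (T : Finset X) (w : X → ℝ) (l : X → ℕ) (hw : ∀ x ∈ T, 0 ≤ w x) (F : X → ℝ) :
    ∑ x ∈ T, w x * cE T w l F x * cE T w l F x = ∑ x ∈ T, w x * cE T w l F x * F x := by
  rw [sum_cE_mul, sum_cE_mul]
  apply sum_congr rfl
  intro a _
  rw [fsum_cE T w l hw]

/-- pairing with a function of the label -/
theorem cE_comp (T : Finset X) (w : X → ℝ) (l : X → ℕ) (hw : ∀ x ∈ T, 0 ≤ w x) (F : X → ℝ)
    (G : ℕ → ℝ) :
    ∑ x ∈ T, w x * cE T w l F x * G (l x) = ∑ x ∈ T, w x * F x * G (l x) := by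
  rw [sum_cE_mul]
  rw [← sum_fiberwise_of_maps_to (g := l) (t := T.image l) (s := T)
    (f := fun x => w x * F x * G (l x)) (fun x hx => mem_image_of_mem l hx)]
  apply sum_congr rfl
  intro a _
  rw [fsum_comp]
  have e : ∑ x ∈ T.filter (fun x => l x = a), w x * F x * G (l x) = fsum T w l F a * G a := by
    unfold fsum
    rw [sum_mul]
    apply sum_congr rfl
    intro y hy
    rw [(mem_filter.mp hy).2]
  rw [e]
  by_cases h : fwt T w l a = 0
  · rw [fsum_eq_zero_of_fwt T w l hw _ a h]; simp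
  · field_simp

/-- the conditional expectation preserves the weighted sum -/
theorem cE_sum (T : Finset X) (w : X → ℝ) (l : X → ℕ) (hw : ∀ x ∈ T, 0 ≤ w x) (F : X → ℝ) :
    ∑ x ∈ T, w x * cE T w l F x = ∑ x ∈ T, w x * F x := by
  have := cE_comp T w l hw F (fun _ => 1)
  simpa using this

end CondExp

/-- log-convexity argument: a nonnegative log-convex sequence dominated by a geometric
sequence of ratio `θ` satisfies `b 1 ≤ θ * b 0`. -/
theorem pow_trick (b : ℕ → ℝ) (hb : ∀ t, 0 ≤ b t)
    (hconv : ∀ t, b (t + 1) ^ 2 ≤ b t * b (t + 2)) (C θ : ℝ) (hθ : 0 < θ)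
    (hC : ∀ t, b t ≤ C * θ ^ t) : b 1 ≤ θ * b 0 := by
  by_contra hcon
  rw [not_le] at hcon
  rcases (hb 0).lt_or_eq with h0 | h0
  · -- b 0 > 0
    set q : ℝ := b 1 / b 0 with hq
    have hqθ : θ < q := by
      rw [hq, lt_div_iff₀ h0]; exact hcon
    have hq0 : 0 < q := lt_trans hθ hqθ
    have step : ∀ t, 0 < b t ∧ q * b t ≤ b (t + 1) := by
      intro t
      induction t with
      | zero =>
        refine ⟨h0, ?_⟩
        rw [hq, div_mul_cancel₀ _ (ne_of_gt h0)]
      | succ t ih =>
        obtain ⟨hpos, hle⟩ := ih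
        have hpos1 : 0 < b (t + 1) := lt_of_lt_of_le (mul_pos hq0 hpos) hle
        refine ⟨hpos1, ?_⟩
        have h2 := hconv t
        -- b(t+1)^2 ≤ b t * b (t+2), and q * b t ≤ b (t+1)
        have h3 : q * b t * b (t + 1) ≤ b t * b (t + 2) := by
          calc q * b t * b (t + 1) ≤ b (t + 1) * b (t + 1) :=
                mul_le_mul_of_nonneg_right hle (le_of_lt hpos1)
            _ = b (t + 1) ^ 2 := by ring
            _ ≤ b t * b (t + 2) := h2
        have h4 : b t * (q * b (t + 1)) ≤ b t * b (t + 2) := by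
          calc b t * (q * b (t + 1)) = q * b t * b (t + 1) := by ring
            _ ≤ b t * b (t + 2) := h3
        exact le_of_mul_le_mul_left h4 hpos
    have geo : ∀ t, q ^ t * b 0 ≤ b t := by
      intro t
      induction t with
      | zero => simp
      | succ t ih =>
        calc q ^ (t + 1) * b 0 = q * (q ^ t * b 0) := by ring
          _ ≤ q * b t := mul_le_mul_of_nonneg_left ih (le_of_lt hq0)
          _ ≤ b (t + 1) := (step t).2
    have hratio : 1 < q / θ := by
      rw [lt_div_iff₀ hθ]; simpa using hqθ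
    obtain ⟨t, ht⟩ := pow_unbounded_of_one_lt (C / b 0) hratio
    have h5 : q ^ t * b 0 ≤ C * θ ^ t := le_trans (geo t) (hC t)
    have hθt : 0 < θ ^ t := pow_pos hθ t
    have h6 : (q / θ) ^ t ≤ C / b 0 := by
      rw [div_pow, div_le_div_iff₀ hθt h0]
      linarith
    linarith
  · -- b 0 = 0
    have h1 := hconv 0
    rw [← h0, zero_mul] at h1
    rw [← h0, mul_zero] at hcon
    nlinarith [sq_nonneg (b 1)]

end ThreeSite
end KTV
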