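import Mathlib

/-!
A one-dimensional coupling bound for two weight sequences that are ordered
in the likelihood-ratio sense, in cross-multiplied form (no division).
-/

namespace KTV
namespace ThreeSite

open Finset

/-- Coupling bound: if `a` (on `0..n+1`) and `b` (on `0..n`) satisfy the two
cross-multiplied ordering conditions, then the two weighted means of `f` and `f'`
differ by at most `L`, provided `f k` is within `L` of `f' k` and of `f' (k-1)`
wherever both weights are positive. -/
theorem coupling_bound (n : ℕ) (a b f f' : ℕ → ℝ) (L : ℝ)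
    (ha : ∀ k, 0 ≤ a k) (hb : ∀ k, 0 ≤ b k)
    (H1 : ∀ j i, j < i → i ≤ n + 1 → b j * a i ≤ a (j + 1) * b (i - 1))
    (H2 : ∀ x y, x < y → y ≤ n → a x * b y ≤ b x * a y)
    (L1 : ∀ k, k ≤ n → 0 < a k → 0 < b k → |f k - f' k| ≤ L)
    (L2 : ∀ k, k ≤ n → 0 < a (k + 1) → 0 < b k → |f (k + 1) - f' k| ≤ L) :
    |(∑ k ∈ range (n + 1), b k) * (∑ k ∈ range (n + 2), a k * f k)
      - (∑ k ∈ range (n + 2), a k) * (∑ k ∈ range (n + 1), b k * f' k)|
      ≤ L * ((∑ k ∈ range (n + 2), a k) * (∑ k ∈ range (n + 1), b k)) := by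
  classical
  set A : ℕ → ℝ := fun k => ∑ j ∈ range k, a j with hA
  set B : ℕ → ℝ := fun k => ∑ j ∈ range k, b j with hB
  set Z : ℝ := A (n + 2) with hZ
  set Z' : ℝ := B (n + 1) with hZ'
  have hZ0 : 0 ≤ Z := sum_nonneg fun k _ => ha k
  have hZ'0 : 0 ≤ Z' := sum_nonneg fun k _ => hb k
  set U : ℕ → ℝ := fun k => Z' * A (k + 1) - Z * B k with hU
  set V : ℕ → ℝ := fun k => Z * B k - Z' * A k with hV
  have hUV : ∀ k, U k + V k = Z' * a k := by
    intro k
    simp only [hU, hV, hA, sum_range_succ]
    ring
  have hUV' : ∀ k, U k + V (k + 1) = Z * b k := by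
    intro k
    simp only [hU, hV, hB, sum_range_succ]
    ring
  have hUlast : U (n + 1) = 0 := by
    simp only [hU, hZ, hZ']
    ring
  have hV0 : V 0 = 0 := by
    simp [hV, hA, hB]
  -- nonnegativity of V
  have hVnn : ∀ k, k ≤ n + 1 → 0 ≤ V k := by
    intro k hk
    have e1 : Z = A k + ∑ i ∈ Ico k (n + 2), a i := by
      simp only [hZ, hA]
      exact (sum_range_add_sum_Ico a (by omega)).symm
    have e2 : Z' = B k + ∑ j ∈ Ico k (n + 1), b j := by
      simp only [hZ', hB]
      exact (sum_range_add_sum_Ico b hk).symm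
    have e3 : V k = (∑ i ∈ Ico k (n + 2), a i) * B k - (∑ j ∈ Ico k (n + 1), b j) * A k := by
      simp only [hV]
      rw [e1, e2]
      ring
    rw [e3, sub_nonneg]
    simp only [hA, hB]
    rw [sum_mul_sum, sum_mul_sum, sum_comm]
    rw [sum_comm (s := Ico k (n + 2))]
    apply sum_le_sum
    intro x hx
    have hxk : x < k := mem_range.mp hx
    calc ∑ y ∈ Ico k (n + 1), b y * a x
        ≤ ∑ y ∈ Ico k (n + 1), a y * b x := by
          apply sum_le_sum
          intro y hy
          have hy' := mem_Ico.mp hy
          have := H2 x y (by omega) (by omega)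
          linarith [this]
      _ ≤ ∑ y ∈ Ico k (n + 2), a y * b x := by
          apply sum_le_sum_of_subset_of_nonneg
          · intro y hy
            have hy' := mem_Ico.mp hy
            exact mem_Ico.mpr ⟨hy'.1, by omega⟩
          · intro y _ _
            exact mul_nonneg (ha y) (hb x)
  -- nonnegativity of U
  have hUnn : ∀ k, k ≤ n → 0 ≤ U k := by
    intro k hk
    have e1 : Z = A (k + 1) + ∑ i ∈ Ico (k + 1) (n + 2), a i := by
      simp only [hZ, hA]
      exact (sum_range_add_sum_Ico a (by omega)).symm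
    have e2 : Z' = B k + ∑ j ∈ Ico k (n + 1), b j := by
      simp only [hZ', hB]
      exact (sum_range_add_sum_Ico b (by omega)).symm
    have e3 : U k = A (k + 1) * (∑ j ∈ Ico k (n + 1), b j)
        - B k * (∑ i ∈ Ico (k + 1) (n + 2), a i) := by
      simp only [hU]
      rw [e1, e2]
      ring
    rw [e3, sub_nonneg]
    have shift : ∑ i ∈ Ico (k + 1) (n + 2), b (i - 1) = ∑ j ∈ Ico k (n + 1), b j := by
      have := sum_Ico_add' (fun x => b (x - 1)) k (n + 1) 1
      simp only [Nat.add_sub_cancel] at this
      exact this.symm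
    calc B k * (∑ i ∈ Ico (k + 1) (n + 2), a i)
        = ∑ j ∈ range k, ∑ i ∈ Ico (k + 1) (n + 2), b j * a i := by
          simp only [hB]; rw [sum_mul_sum]
      _ ≤ ∑ j ∈ range k, ∑ i ∈ Ico (k + 1) (n + 2), a (j + 1) * b (i - 1) := by
          apply sum_le_sum
          intro j hj
          apply sum_le_sum
          intro i hi
          have hj' := mem_range.mp hj
          have hi' := mem_Ico.mp hi
          exact H1 j i (by omega) (by omega)
      _ = (∑ j ∈ range k, a (j + 1)) * (∑ j ∈ Ico k (n + 1), b j) := by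
          rw [← shift, sum_mul_sum]
      _ ≤ A (k + 1) * (∑ j ∈ Ico k (n + 1), b j) := by
          apply mul_le_mul_of_nonneg_right
          · simp only [hA]
            rw [sum_range_succ']
            linarith [ha 0]
          · exact sum_nonneg fun j _ => hb j
  -- main identity
  have key : Z' * (∑ k ∈ range (n + 2), a k * f k) - Z * (∑ k ∈ range (n + 1), b k * f' k)
      = ∑ k ∈ range (n + 1), (U k * (f k - f' k) + V (k + 1) * (f (k + 1) - f' k)) := by
    have e1 : Z' * (∑ k ∈ range (n + 2), a k * f k)
        = ∑ k ∈ range (n + 2), U k * f k + ∑ k ∈ range (n + 2), V k * f k := by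
      rw [mul_sum, ← sum_add_distrib]
      apply sum_congr rfl
      intro k _
      rw [← add_mul, hUV k]; ring
    have e2 : Z * (∑ k ∈ range (n + 1), b k * f' k)
        = ∑ k ∈ range (n + 1), (U k + V (k + 1)) * f' k := by
      rw [mul_sum]
      apply sum_congr rfl
      intro k _
      rw [hUV' k]; ring
    have e3 : ∑ k ∈ range (n + 2), U k * f k = ∑ k ∈ range (n + 1), U k * f k := by
      rw [sum_range_succ (fun k => U k * f k) (n + 1), hUlast]; simp
    have e4 : ∑ k ∈ range (n + 2), V k * f k = ∑ k ∈ range (n + 1), V (k + 1) * f (k + 1) := by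
      rw [sum_range_succ' (fun k => V k * f k) (n + 1), hV0]; simp
    rw [e1, e2, e3, e4, ← sum_add_distrib, ← sum_sub_distrib]
    apply sum_congr rfl
    intro k _
    ring
  have hUle : ∀ k, k ≤ n → |U k * (f k - f' k)| ≤ U k * L := by
    intro k hk
    have hU0 := hUnn k hk
    rcases hU0.lt_or_eq with hpos | hzero
    · have hVk := hVnn k (by omega)
      have hVk1 := hVnn (k + 1) (by omega)
      have h1 : 0 < Z' * a k := by linarith [hUV k]
      have h2 : 0 < Z * b k := by linarith [hUV' k]
      have hak : 0 < a k := by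
        rcases (ha k).lt_or_eq with h | h
        · exact h
        · rw [← h] at h1; simp at h1
      have hbk : 0 < b k := by
        rcases (hb k).lt_or_eq with h | h
        · exact h
        · rw [← h] at h2; simp at h2
      rw [abs_mul, abs_of_nonneg hU0]
      exact mul_le_mul_of_nonneg_left (L1 k hk hak hbk) hU0
    · rw [← hzero]; simp
  have hVle : ∀ k, k ≤ n → |V (k + 1) * (f (k + 1) - f' k)| ≤ V (k + 1) * L := by
    intro k hk
    have hV0' := hVnn (k + 1) (by omega)
    rcases hV0'.lt_or_eq with hpos | hzero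
    · have hUk := hUnn k hk
      have hUk1 : 0 ≤ U (k + 1) := by
        rcases Nat.lt_or_ge k n with h | h
        · exact hUnn (k + 1) (by omega)
        · have : k = n := by omega
          rw [this, hUlast]
      have h1 : 0 < Z' * a (k + 1) := by linarith [hUV (k + 1)]
      have h2 : 0 < Z * b k := by linarith [hUV' k]
      have hak : 0 < a (k + 1) := by
        rcases (ha (k + 1)).lt_or_eq with h | h
        · exact h
        · rw [← h] at h1; simp at h1
      have hbk : 0 < b k := by
        rcases (hb k).lt_or_eq with h | h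
        · exact h
        · rw [← h] at h2; simp at h2
      rw [abs_mul, abs_of_nonneg hV0']
      exact mul_le_mul_of_nonneg_left (L2 k hk hak hbk) hV0'
    · rw [← hzero]; simp
  have hsum : ∑ k ∈ range (n + 1), (U k * L + V (k + 1) * L) = L * (Z * Z') := by
    have : ∀ k ∈ range (n + 1), U k * L + V (k + 1) * L = L * Z * b k := by
      intro k _
      rw [← add_mul, hUV' k]; ring
    rw [sum_congr rfl this, ← mul_sum]
    simp only [hZ', hB]
    ring
  show |Z' * (∑ k ∈ range (n + 2), a k * f k) - Z * (∑ k ∈ range (n + 1), b k * f' k)|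
      ≤ L * (Z * Z')
  rw [key, ← hsum]
  calc |∑ k ∈ range (n + 1), (U k * (f k - f' k) + V (k + 1) * (f (k + 1) - f' k))|
      ≤ ∑ k ∈ range (n + 1), |U k * (f k - f' k) + V (k + 1) * (f (k + 1) - f' k)| :=
        abs_sum_le_sum_abs _ _
    _ ≤ ∑ k ∈ range (n + 1), (U k * L + V (k + 1) * L) := by
        apply sum_le_sum
        intro k hk
        have hk' : k ≤ n := by have := mem_range.mp hk; omega
        calc |U k * (f k - f' k) + V (k + 1) * (f (k + 1) - f' k)|
            ≤ |U k * (f k - f' k)| + |V (k + 1) * (f (k + 1) - f' k)| := abs_add_le _ _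
          _ ≤ U k * L + V (k + 1) * L := add_le_add (hUle k hk') (hVle k hk')

end ThreeSite
end KTV
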