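import Vale.Agent.Helper6.KTV.Simplex

/-!
Lipschitz contraction of the averaged coordinate conditional expectations on the
support of a product of three log-concave weights with conserved sum.
-/

namespace KTV
namespace ThreeSite

open Finset

/-- conditional expectation given the coordinate `r` -/
noncomputable def cEr (μ : Fin 3 → ℕ → ℝ) (M : ℕ) (r : Fin 3) (F : (Fin 3 → ℕ) → ℝ) :
    (Fin 3 → ℕ) → ℝ :=
  cE (Tset M) (wt μ) (fun ν => ν r) F

/-- the average of the three coordinate conditional expectations -/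
noncomputable def Kop (μ : Fin 3 → ℕ → ℝ) (M : ℕ) (F : (Fin 3 → ℕ) → ℝ) :
    (Fin 3 → ℕ) → ℝ :=
  fun ν => (∑ r, cEr μ M r F ν) / 3

/-- support of the weight inside the simplex -/
def Supp (μ : Fin 3 → ℕ → ℝ) (M : ℕ) (ν : Fin 3 → ℕ) : Prop := ν ∈ Tset M ∧ 0 < wt μ ν

/-- `ν'` arises from `ν` by moving one unit from a site `q` to a site `p` -/
def Adj (ν ν' : Fin 3 → ℕ) : Prop :=
  ∃ p q : Fin 3, p ≠ q ∧ ν' p = ν p + 1 ∧ ν q = ν' q + 1 ∧ ∀ r, r ≠ p → r ≠ q → ν' r = ν r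

/-- Lipschitz bound along adjacent support points -/
def Lip (μ : Fin 3 → ℕ → ℝ) (M : ℕ) (F : (Fin 3 → ℕ) → ℝ) (L : ℝ) : Prop :=
  ∀ ν ν', Supp μ M ν → Supp μ M ν' → Adj ν ν' → |F ν - F ν'| ≤ L

theorem cEr_congr (μ : Fin 3 → ℕ → ℝ) (M : ℕ) (r : Fin 3) (F : (Fin 3 → ℕ) → ℝ)
    {ν ν' : Fin 3 → ℕ} (h : ν r = ν' r) : cEr μ M r F ν = cEr μ M r F ν' := by
  unfold cEr cE
  show fsum _ _ _ F (ν r) / fwt _ _ _ (ν r) = fsum _ _ _ F (ν' r) / fwt _ _ _ (ν' r)
  rw [h]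

theorem supp_le {μ : Fin 3 → ℕ → ℝ} {M : ℕ} {ν : Fin 3 → ℕ} (hν : Supp μ M ν)
    {p x y : Fin 3} (hpx : p ≠ x) (hpy : p ≠ y) (hxy : x ≠ y) : ν p + (ν x + ν y) = M := by
  have h := hν.1
  rw [mem_Tset, sum3 hpx hpy hxy] at h
  exact h

theorem cEr_eq {p x y : Fin 3} (hpx : p ≠ x) (hpy : p ≠ y) (hxy : x ≠ y)
    (μ : Fin 3 → ℕ → ℝ) (hμ : ∀ r k, 0 ≤ μ r k) (M : ℕ) (F : (Fin 3 → ℕ) → ℝ)
    {ν : Fin 3 → ℕ} (hν : Supp μ M ν) :
    cEr μ M p F ν
      = (∑ k ∈ range (M - ν p + 1), μ x k * μ y (M - ν p - k) * F (pt p x (ν p) k (M - ν p - k)))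
        / (∑ k ∈ range (M - ν p + 1), μ x k * μ y (M - ν p - k)) := by
  have hle : ν p ≤ M := by have := supp_le hν hpx hpy hxy; omega
  have hpa : 0 < μ p (ν p) := wt_pos_factor hμ hν.2 p
  unfold cEr cE fsum fwt
  show (∑ ν' ∈ (Tset M).filter (fun ν' => ν' p = ν p), wt μ ν' * F ν')
      / (∑ ν' ∈ (Tset M).filter (fun ν' => ν' p = ν p), wt μ ν') = _
  rw [fibre_sum hpx hpy hxy M (ν p) hle (fun ν' => wt μ ν' * F ν'),
    fibre_sum hpx hpy hxy M (ν p) hle (fun ν' => wt μ ν')]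
  simp only [wt_pt hpx hpy hxy]
  have e1 : ∑ k ∈ range (M - ν p + 1),
        μ p (ν p) * (μ x k * μ y (M - ν p - k)) * F (pt p x (ν p) k (M - ν p - k))
      = μ p (ν p) * ∑ k ∈ range (M - ν p + 1),
        μ x k * μ y (M - ν p - k) * F (pt p x (ν p) k (M - ν p - k)) := by
    rw [mul_sum]; apply sum_congr rfl; intro k _; ring
  rw [e1, ← mul_sum, mul_div_mul_left _ _ (ne_of_gt hpa)]

/-- the coordinate conditional expectation moves by at most `L` between two support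
points whose `p`-coordinates differ by one -/
theorem lip_cE {p x y : Fin 3} (hpx : p ≠ x) (hpy : p ≠ y) (hxy : x ≠ y)
    (μ : Fin 3 → ℕ → ℝ) (hμ : ∀ r k, 0 ≤ μ r k)
    (hlc : ∀ r k, μ r k * μ r (k + 2) ≤ μ r (k + 1) ^ 2)
    (hint : ∀ r i j k, i ≤ j → j ≤ k → 0 < μ r i → 0 < μ r k → 0 < μ r j)
    (M : ℕ) (F : (Fin 3 → ℕ) → ℝ) (L : ℝ) (hF : Lip μ M F L)
    {ν ν' : Fin 3 → ℕ} (hν : Supp μ M ν) (hν' : Supp μ M ν') (h : ν' p = ν p + 1) :
    |cEr μ M p F ν - cEr μ M p F ν'| ≤ L := by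
  have hs := supp_le hν hpx hpy hxy
  have hs' := supp_le hν' hpx hpy hxy
  have hpa : 0 < μ p (ν p) := wt_pos_factor hμ hν.2 p
  have hpa' : 0 < μ p (ν p + 1) := by
    have := wt_pos_factor hμ hν'.2 p
    rwa [h] at this
  obtain ⟨n, hn⟩ : ∃ n, M - ν p = n + 1 := ⟨M - ν p - 1, by omega⟩
  have hn' : M - (ν p + 1) = n := by omega
  rw [cEr_eq hpx hpy hxy μ hμ M F hν, cEr_eq hpx hpy hxy μ hμ M F hν', h, hn, hn']
  set a : ℕ → ℝ := fun k => μ x k * μ y (n + 1 - k) with ha_def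
  set b : ℕ → ℝ := fun k => μ x k * μ y (n - k) with hb_def
  set f : ℕ → ℝ := fun k => F (pt p x (ν p) k (n + 1 - k)) with hf_def
  set f' : ℕ → ℝ := fun k => F (pt p x (ν p + 1) k (n - k)) with hf'_def
  have ha : ∀ k, 0 ≤ a k := fun k => mul_nonneg (hμ x k) (hμ y _)
  have hb : ∀ k, 0 ≤ b k := fun k => mul_nonneg (hμ x k) (hμ y _)
  have H1 : ∀ j i, j < i → i ≤ n + 1 → b j * a i ≤ a (j + 1) * b (i - 1) := by
    intro j i hji hi
    obtain ⟨e, rfl⟩ : ∃ e, i = j + 1 + e := ⟨i - j - 1, by omega⟩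
    have e1 : n + 1 - (j + 1) = n - j := by omega
    have e2 : j + 1 + e - 1 = j + e := by omega
    have e3 : n - (j + e) = n + 1 - (j + 1 + e) := by omega
    simp only [ha_def, hb_def]
    rw [e1, e2, e3]
    have hl := lc_two (μ x) (hμ x) (hlc x) (hint x) j e
    calc μ x j * μ y (n - j) * (μ x (j + 1 + e) * μ y (n + 1 - (j + 1 + e)))
        = (μ x j * μ x (j + 1 + e)) * (μ y (n - j) * μ y (n + 1 - (j + 1 + e))) := by ring
      _ ≤ (μ x (j + 1) * μ x (j + e)) * (μ y (n - j) * μ y (n + 1 - (j + 1 + e))) :=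
          mul_le_mul_of_nonneg_right hl (mul_nonneg (hμ y _) (hμ y _))
      _ = μ x (j + 1) * μ y (n - j) * (μ x (j + e) * μ y (n + 1 - (j + 1 + e))) := by ring
  have H2 : ∀ x' y', x' < y' → y' ≤ n → a x' * b y' ≤ b x' * a y' := by
    intro x' y' hxy' hy'
    have hl := lc_two (μ y) (hμ y) (hlc y) (hint y) (n - y') (y' - x')
    have e1 : n - y' + 1 + (y' - x') = n + 1 - x' := by omega
    have e2 : n - y' + 1 = n + 1 - y' := by omega
    have e3 : n - y' + (y' - x') = n - x' := by omega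
    rw [e1, e2, e3] at hl
    simp only [ha_def, hb_def]
    calc μ x x' * μ y (n + 1 - x') * (μ x y' * μ y (n - y'))
        = (μ y (n - y') * μ y (n + 1 - x')) * (μ x x' * μ x y') := by ring
      _ ≤ (μ y (n + 1 - y') * μ y (n - x')) * (μ x x' * μ x y') :=
          mul_le_mul_of_nonneg_right hl (mul_nonneg (hμ x _) (hμ x _))
      _ = μ x x' * μ y (n - x') * (μ x y' * μ y (n + 1 - y')) := by ring
  have L1 : ∀ k, k ≤ n → 0 < a k → 0 < b k → |f k - f' k| ≤ L := by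
    intro k hk hak hbk
    apply hF
    · refine ⟨pt_mem hpx hpy hxy (by omega), ?_⟩
      rw [wt_pt hpx hpy hxy]
      exact mul_pos hpa hak
    · refine ⟨pt_mem hpx hpy hxy (by omega), ?_⟩
      rw [wt_pt hpx hpy hxy]
      exact mul_pos hpa' hbk
    · refine ⟨p, y, hpy, ?_, ?_, ?_⟩
      · rw [pt_p, pt_p]
      · rw [pt_y hpy hxy, pt_y hpy hxy]; omega
      · intro r hr1 hr2
        rcases cases3 hpx hpy hxy r with h' | h' | h'
        · exact absurd h' hr1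
        · rw [h', pt_x hpx, pt_x hpx]
        · exact absurd h' hr2
  have L2 : ∀ k, k ≤ n → 0 < a (k + 1) → 0 < b k → |f (k + 1) - f' k| ≤ L := by
    intro k hk hak hbk
    have e1 : n + 1 - (k + 1) = n - k := by omega
    apply hF
    · refine ⟨pt_mem hpx hpy hxy (by omega), ?_⟩
      rw [wt_pt hpx hpy hxy]
      exact mul_pos hpa hak
    · refine ⟨pt_mem hpx hpy hxy (by omega), ?_⟩
      rw [wt_pt hpx hpy hxy]
      exact mul_pos hpa' hbk
    · refine ⟨p, x, hpx, ?_, ?_, ?_⟩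
      · rw [pt_p, pt_p]
      · rw [pt_x hpx, pt_x hpx]
      · intro r hr1 hr2
        rcases cases3 hpx hpy hxy r with h' | h' | h'
        · exact absurd h' hr1
        · exact absurd h' hr2
        · rw [h', pt_y hpy hxy, pt_y hpy hxy, e1]
  have hcb := coupling_bound n a b f f' L ha hb H1 H2 L1 L2
  -- positivity of the normalisations
  have hZ : 0 < ∑ k ∈ range (n + 2), a k := by
    have hmem : ν x ∈ range (n + 2) := by rw [mem_range]; omega
    have hpos : 0 < a (ν x) := by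
      simp only [ha_def]
      have e : n + 1 - ν x = ν y := by omega
      rw [e]
      exact mul_pos (wt_pos_factor hμ hν.2 x) (wt_pos_factor hμ hν.2 y)
    exact lt_of_lt_of_le hpos (single_le_sum (fun k _ => ha k) hmem)
  have hZ' : 0 < ∑ k ∈ range (n + 1), b k := by
    have hmem : ν' x ∈ range (n + 1) := by rw [mem_range]; omega
    have hpos : 0 < b (ν' x) := by
      simp only [hb_def]
      have e : n - ν' x = ν' y := by omega
      rw [e]
      exact mul_pos (wt_pos_factor hμ hν'.2 x) (wt_pos_factor hμ hν'.2 y)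
    exact lt_of_lt_of_le hpos (single_le_sum (fun k _ => hb k) hmem)
  show |(∑ k ∈ range (n + 1 + 1), a k * f k) / (∑ k ∈ range (n + 1 + 1), a k)
      - (∑ k ∈ range (n + 1), b k * f' k) / (∑ k ∈ range (n + 1), b k)| ≤ L
  rw [div_sub_div _ _ (ne_of_gt hZ) (ne_of_gt hZ'), abs_div, abs_of_pos (mul_pos hZ hZ'),
    div_le_iff₀ (mul_pos hZ hZ')]
  have e : (∑ k ∈ range (n + 1 + 1), a k * f k) * (∑ k ∈ range (n + 1), b k)
      - (∑ k ∈ range (n + 1 + 1), a k) * (∑ k ∈ range (n + 1), b k * f' k)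
      = (∑ k ∈ range (n + 1), b k) * (∑ k ∈ range (n + 2), a k * f k)
      - (∑ k ∈ range (n + 2), a k) * (∑ k ∈ range (n + 1), b k * f' k) := by ring
  rw [e]
  exact hcb

/-- Lipschitz contraction by the factor two thirds -/
theorem lip_K (μ : Fin 3 → ℕ → ℝ) (hμ : ∀ r k, 0 ≤ μ r k)
    (hlc : ∀ r k, μ r k * μ r (k + 2) ≤ μ r (k + 1) ^ 2)
    (hint : ∀ r i j k, i ≤ j → j ≤ k → 0 < μ r i → 0 < μ r k → 0 < μ r j)
    (M : ℕ) (F : (Fin 3 → ℕ) → ℝ) (L : ℝ) (hF : Lip μ M F L) :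
    Lip μ M (Kop μ M F) (2 / 3 * L) := by
  intro ν ν' hν hν' hadj
  obtain ⟨p, q, hpq, h1, h2, h3⟩ := hadj
  obtain ⟨t, htp, htq⟩ := third3 p q hpq
  have ep := lip_cE hpq htp.symm htq.symm μ hμ hlc hint M F L hF hν hν' h1
  have eq := lip_cE hpq.symm htq.symm htp.symm μ hμ hlc hint M F L hF hν' hν h2
  have et : cEr μ M t F ν = cEr μ M t F ν' := cEr_congr μ M t F (h3 t htp htq).symm
  unfold Kop
  rw [sum3 hpq htp.symm htq.symm, sum3 hpq htp.symm htq.symm, et]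
  rw [abs_le] at ep eq ⊢
  constructor <;> linarith [ep.1, ep.2, eq.1, eq.2]

theorem diam_aux (μ : Fin 3 → ℕ → ℝ) (hμ : ∀ r k, 0 ≤ μ r k)
    (hint : ∀ r i j k, i ≤ j → j ≤ k → 0 < μ r i → 0 < μ r k → 0 < μ r j)
    (M : ℕ) (F : (Fin 3 → ℕ) → ℝ) (L : ℝ) (hF : Lip μ M F L) :
    ∀ e : ℕ, ∀ ν ν' : Fin 3 → ℕ, Supp μ M ν → Supp μ M ν' → ∑ r, (ν r - ν' r) = e →
      |F ν - F ν'| ≤ e * L := by
  intro e
  induction e with
  | zero =>
    intro ν ν' hν hν' he
    have h1 := hν.1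
    have h2 := hν'.1
    rw [mem_Tset, Fin.sum_univ_three] at h1 h2
    rw [Fin.sum_univ_three] at he
    have : ν = ν' := by
      funext r
      fin_cases r
      · show ν 0 = ν' 0; omega
      · show ν 1 = ν' 1; omega
      · show ν 2 = ν' 2; omega
    rw [this]
    simp
  | succ e ih =>
    intro ν ν' hν hν' he
    have h1 := hν.1
    have h2 := hν'.1
    rw [mem_Tset, Fin.sum_univ_three] at h1 h2
    have he3 := he
    rw [Fin.sum_univ_three] at he3
    have hq : ∃ q : Fin 3, ν' q < ν q := by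
      by_contra hcon
      have c0 := not_lt.mp (fun hh => hcon ⟨0, hh⟩)
      have c1 := not_lt.mp (fun hh => hcon ⟨1, hh⟩)
      have c2 := not_lt.mp (fun hh => hcon ⟨2, hh⟩)
      omega
    have hp : ∃ p : Fin 3, ν p < ν' p := by
      by_contra hcon
      have c0 := not_lt.mp (fun hh => hcon ⟨0, hh⟩)
      have c1 := not_lt.mp (fun hh => hcon ⟨1, hh⟩)
      have c2 := not_lt.mp (fun hh => hcon ⟨2, hh⟩)
      omega
    obtain ⟨q, hq⟩ := hq
    obtain ⟨p, hp⟩ := hp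
    have hpq : p ≠ q := by
      intro hh
      rw [hh] at hp
      omega
    obtain ⟨t, htp, htq⟩ := third3 p q hpq
    have hs := supp_le hν hpq htp.symm htq.symm
    have hs' := supp_le hν' hpq htp.symm htq.symm
    rw [sum3 hpq htp.symm htq.symm] at he
    set ν'' : Fin 3 → ℕ := pt p q (ν p + 1) (ν q - 1) (ν t) with hν''
    have hsupp : Supp μ M ν'' := by
      refine ⟨pt_mem hpq htp.symm htq.symm (by omega), ?_⟩
      rw [wt_pt hpq htp.symm htq.symm]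
      refine mul_pos ?_ (mul_pos ?_ (wt_pos_factor hμ hν.2 t))
      · exact hint p (ν p) (ν p + 1) (ν' p) (by omega) (by omega)
          (wt_pos_factor hμ hν.2 p) (wt_pos_factor hμ hν'.2 p)
      · exact hint q (ν' q) (ν q - 1) (ν q) (by omega) (by omega)
          (wt_pos_factor hμ hν'.2 q) (wt_pos_factor hμ hν.2 q)
    have hadj : Adj ν ν'' := by
      refine ⟨p, q, hpq, pt_p _ _ _ _ _, ?_, ?_⟩
      · rw [hν'', pt_x hpq]; omega
      · intro r hr1 hr2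
        rcases cases3 hpq htp.symm htq.symm r with h' | h' | h'
        · exact absurd h' hr1
        · exact absurd h' hr2
        · rw [h', hν'', pt_y htp.symm htq.symm]
    have hex : ∑ r, (ν'' r - ν' r) = e := by
      rw [sum3 hpq htp.symm htq.symm, hν'', pt_p, pt_x hpq, pt_y htp.symm htq.symm]
      omega
    have b1 := hF ν ν'' hν hsupp hadj
    have b2 := ih ν'' ν' hsupp hν' hex
    calc |F ν - F ν'| ≤ |F ν - F ν''| + |F ν'' - F ν'| := abs_sub_le _ _ _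
      _ ≤ L + e * L := add_le_add b1 b2
      _ = ((e + 1 : ℕ) : ℝ) * L := by push_cast; ring

/-- any two support points differ by at most `M * L` -/
theorem diam (μ : Fin 3 → ℕ → ℝ) (hμ : ∀ r k, 0 ≤ μ r k)
    (hint : ∀ r i j k, i ≤ j → j ≤ k → 0 < μ r i → 0 < μ r k → 0 < μ r j)
    (M : ℕ) (F : (Fin 3 → ℕ) → ℝ) (L : ℝ) (hL : 0 ≤ L) (hF : Lip μ M F L)
    {ν ν' : Fin 3 → ℕ} (hν : Supp μ M ν) (hν' : Supp μ M ν') : |F ν - F ν'| ≤ M * L := by
  have h := diam_aux μ hμ hint M F L hF (∑ r, (ν r - ν' r)) ν ν' hν hν' rfl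
  have hle : ∑ r, (ν r - ν' r) ≤ M := by
    have h1 := hν.1
    rw [mem_Tset] at h1
    rw [← h1]
    exact sum_le_sum fun r _ => Nat.sub_le _ _
  exact le_trans h (mul_le_mul_of_nonneg_right (Nat.cast_le.mpr hle) hL)

/-- a function with zero weighted sum is bounded by `M * L` on the support -/
theorem sup_bound (μ : Fin 3 → ℕ → ℝ) (hμ : ∀ r k, 0 ≤ μ r k)
    (hint : ∀ r i j k, i ≤ j → j ≤ k → 0 < μ r i → 0 < μ r k → 0 < μ r j)
    (M : ℕ) (F : (Fin 3 → ℕ) → ℝ) (L : ℝ) (hL : 0 ≤ L) (hF : Lip μ M F L)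
    (h0 : ∑ ν ∈ Tset M, wt μ ν * F ν = 0) {ν : Fin 3 → ℕ} (hν : Supp μ M ν) :
    |F ν| ≤ M * L := by
  have hW : 0 < ∑ ν' ∈ Tset M, wt μ ν' :=
    lt_of_lt_of_le hν.2 (single_le_sum (fun ν' _ => wt_nonneg hμ ν') hν.1)
  have e1 : (∑ ν' ∈ Tset M, wt μ ν') * F ν = ∑ ν' ∈ Tset M, wt μ ν' * (F ν - F ν') := by
    simp only [mul_sub]
    rw [sum_sub_distrib, h0, sub_zero, sum_mul]
  have e2 : |(∑ ν' ∈ Tset M, wt μ ν') * F ν| ≤ (∑ ν' ∈ Tset M, wt μ ν') * (M * L) := by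
    rw [e1, sum_mul]
    refine le_trans (abs_sum_le_sum_abs _ _) (sum_le_sum ?_)
    intro ν' hν'
    rw [abs_mul, abs_of_nonneg (wt_nonneg hμ ν')]
    rcases (wt_nonneg hμ ν').lt_or_eq with hpos | hzero
    · exact mul_le_mul_of_nonneg_left (diam μ hμ hint M F L hL hF hν ⟨hν', hpos⟩)
        (wt_nonneg hμ ν')
    · rw [← hzero]; simp
  rw [abs_mul, abs_of_pos hW] at e2
  exact le_of_mul_le_mul_left e2 hW

end ThreeSite
end KTV
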