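import Vale.Agent.Helper6.KTV.Coupling
import Vale.Agent.Helper6.KTV.CondExp

/-!
Three sites with a conserved sum: the simplex, product weights, fibres of a coordinate.
-/

namespace KTV
namespace ThreeSite

open Finset

theorem univ_eq3 : ∀ p x y : Fin 3, p ≠ x → p ≠ y → x ≠ y →
    (univ : Finset (Fin 3)) = {p, x, y} := by decide

theorem third3 : ∀ p q : Fin 3, p ≠ q → ∃ t : Fin 3, t ≠ p ∧ t ≠ q := by decide

theorem cases3 {p x y : Fin 3} (hpx : p ≠ x) (hpy : p ≠ y) (hxy : x ≠ y) (r : Fin 3) :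
    r = p ∨ r = x ∨ r = y := by
  have h : r ∈ (univ : Finset (Fin 3)) := mem_univ r
  rw [univ_eq3 p x y hpx hpy hxy] at h
  simpa using h

theorem sum3 {α : Type*} [AddCommMonoid α] {p x y : Fin 3} (hpx : p ≠ x) (hpy : p ≠ y)
    (hxy : x ≠ y) (f : Fin 3 → α) : ∑ r, f r = f p + (f x + f y) := by
  rw [univ_eq3 p x y hpx hpy hxy, sum_insert (by simp [hpx, hpy]), sum_insert (by simp [hxy]),
    sum_singleton]

theorem prod3 {α : Type*} [CommMonoid α] {p x y : Fin 3} (hpx : p ≠ x) (hpy : p ≠ y)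
    (hxy : x ≠ y) (f : Fin 3 → α) : ∏ r, f r = f p * (f x * f y) := by
  rw [univ_eq3 p x y hpx hpy hxy, prod_insert (by simp [hpx, hpy]), prod_insert (by simp [hxy]),
    prod_singleton]

/-- the point with coordinates `a, k, l` at `p, x` and the remaining index -/
def pt (p x : Fin 3) (a k l : ℕ) : Fin 3 → ℕ :=
  fun r => if r = p then a else if r = x then k else l

theorem pt_p (p x : Fin 3) (a k l : ℕ) : pt p x a k l p = a := by simp [pt]

theorem pt_x {p x : Fin 3} (hpx : p ≠ x) (a k l : ℕ) : pt p x a k l x = k := by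
  simp [pt, hpx.symm]

theorem pt_y {p x y : Fin 3} (hpy : p ≠ y) (hxy : x ≠ y) (a k l : ℕ) : pt p x a k l y = l := by
  simp [pt, hpy.symm, hxy.symm]

/-- the simplex of triples with sum `M` -/
abbrev Tset (M : ℕ) : Finset (Fin 3 → ℕ) := Finset.Nat.antidiagonalTuple 3 M

/-- product weight -/
def wt (μ : Fin 3 → ℕ → ℝ) (ν : Fin 3 → ℕ) : ℝ := ∏ r, μ r (ν r)

theorem mem_Tset {M : ℕ} {ν : Fin 3 → ℕ} : ν ∈ Tset M ↔ ∑ r, ν r = M :=
  Finset.Nat.mem_antidiagonalTuple

theorem wt_nonneg {μ : Fin 3 → ℕ → ℝ} (hμ : ∀ r k, 0 ≤ μ r k) (ν : Fin 3 → ℕ) : 0 ≤ wt μ ν :=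
  prod_nonneg fun r _ => hμ r (ν r)

theorem wt_pt {p x y : Fin 3} (hpx : p ≠ x) (hpy : p ≠ y) (hxy : x ≠ y) (μ : Fin 3 → ℕ → ℝ)
    (a k l : ℕ) : wt μ (pt p x a k l) = μ p a * (μ x k * μ y l) := by
  unfold wt
  rw [prod3 hpx hpy hxy, pt_p, pt_x hpx, pt_y hpy hxy]

theorem pt_mem {p x y : Fin 3} (hpx : p ≠ x) (hpy : p ≠ y) (hxy : x ≠ y) {M a k l : ℕ}
    (h : a + (k + l) = M) : pt p x a k l ∈ Tset M := by
  rw [mem_Tset, sum3 hpx hpy hxy, pt_p, pt_x hpx, pt_y hpy hxy, h]

theorem eq_pt {p x y : Fin 3} (hpx : p ≠ x) (hpy : p ≠ y) (hxy : x ≠ y) (ν : Fin 3 → ℕ) :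
    ν = pt p x (ν p) (ν x) (ν y) := by
  funext r
  rcases cases3 hpx hpy hxy r with h | h | h
  · rw [h, pt_p]
  · rw [h, pt_x hpx]
  · rw [h, pt_y hpy hxy]

/-- positivity of each factor of a positive weight -/
theorem wt_pos_factor {μ : Fin 3 → ℕ → ℝ} (hμ : ∀ r k, 0 ≤ μ r k) {ν : Fin 3 → ℕ}
    (h : 0 < wt μ ν) (r : Fin 3) : 0 < μ r (ν r) := by
  rcases (hμ r (ν r)).lt_or_eq with h1 | h1
  · exact h1
  · exfalso
    have : wt μ ν = 0 := by
      unfold wt
      exact prod_eq_zero (mem_univ r) h1.symm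
    linarith

/-- sum over a fibre of the coordinate `p` as a sum over a range -/
theorem fibre_sum {p x y : Fin 3} (hpx : p ≠ x) (hpy : p ≠ y) (hxy : x ≠ y) (M a : ℕ)
    (ha : a ≤ M) (g : (Fin 3 → ℕ) → ℝ) :
    ∑ ν ∈ (Tset M).filter (fun ν => ν p = a), g ν
      = ∑ k ∈ range (M - a + 1), g (pt p x a k (M - a - k)) := by
  apply sum_bij' (fun ν _ => ν x) (fun k _ => pt p x a k (M - a - k))
  · intro ν hν
    obtain ⟨h1, h2⟩ := mem_filter.mp hν
    rw [mem_Tset, sum3 hpx hpy hxy] at h1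
    rw [mem_range]
    omega
  · intro k hk
    rw [mem_range] at hk
    rw [mem_filter]
    refine ⟨pt_mem hpx hpy hxy (by omega), pt_p p x a k _⟩
  · intro ν hν
    obtain ⟨h1, h2⟩ := mem_filter.mp hν
    rw [mem_Tset, sum3 hpx hpy hxy] at h1
    have e : M - a - ν x = ν y := by omega
    rw [e, ← h2]
    exact (eq_pt hpx hpy hxy ν).symm
  · intro k _
    exact pt_x hpx a k _
  · intro ν hν
    obtain ⟨h1, h2⟩ := mem_filter.mp hν
    rw [mem_Tset, sum3 hpx hpy hxy] at h1
    have e : M - a - ν x = ν y := by omega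
    rw [e, ← h2]
    exact congrArg g (eq_pt hpx hpy hxy ν)

/-- log-concavity with no internal zeros, in two-point form -/
theorem lc_two (m : ℕ → ℝ) (hm : ∀ k, 0 ≤ m k) (hlc : ∀ k, m k * m (k + 2) ≤ m (k + 1) ^ 2)
    (hint : ∀ i j k, i ≤ j → j ≤ k → 0 < m i → 0 < m k → 0 < m j) (j e : ℕ) :
    m j * m (j + 1 + e) ≤ m (j + 1) * m (j + e) := by
  induction e with
  | zero => simp [mul_comm]
  | succ e ih =>
    rcases (hm (j + e + 1)).lt_or_eq with hpos | hzero
    · -- multiply ih by m (j+e+2)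
      have h1 : m j * m (j + 1 + e) * m (j + e + 2) ≤ m (j + 1) * m (j + e) * m (j + e + 2) :=
        mul_le_mul_of_nonneg_right ih (hm _)
      have h2 := hlc (j + e)
      have e1 : j + 1 + e = j + e + 1 := by omega
      rw [e1] at h1
      have h3 : m (j + e + 1) * (m j * m (j + e + 2)) ≤ m (j + e + 1) * (m (j + 1) * m (j + e + 1)) := by
        calc m (j + e + 1) * (m j * m (j + e + 2)) = m j * m (j + e + 1) * m (j + e + 2) := by ring
          _ ≤ m (j + 1) * m (j + e) * m (j + e + 2) := h1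
          _ = m (j + 1) * (m (j + e) * m (j + e + 2)) := by ring
          _ ≤ m (j + 1) * m (j + e + 1) ^ 2 := mul_le_mul_of_nonneg_left h2 (hm _)
          _ = m (j + e + 1) * (m (j + 1) * m (j + e + 1)) := by ring
      have h4 := le_of_mul_le_mul_left h3 hpos
      have e2 : j + 1 + (e + 1) = j + e + 2 := by omega
      have e3 : j + (e + 1) = j + e + 1 := by omega
      rw [e2, e3]
      exact h4
    · -- m (j+e+1) = 0 : then m j = 0 or m (j+e+2) = 0
      have e2 : j + 1 + (e + 1) = j + e + 2 := by omega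
      have e3 : j + (e + 1) = j + e + 1 := by omega
      rw [e2, e3]
      have hz : m j * m (j + e + 2) = 0 := by
        by_contra hne
        have hj : 0 < m j := by
          rcases (hm j).lt_or_eq with h | h
          · exact h
          · rw [← h] at hne; simp at hne
        have hk : 0 < m (j + e + 2) := by
          rcases (hm (j + e + 2)).lt_or_eq with h | h
          · exact h
          · rw [← h] at hne; simp at hne
        have := hint j (j + e + 1) (j + e + 2) (by omega) (by omega) hj hk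
        linarith
      rw [hz, ← hzero]
      simp

end ThreeSite
end KTV
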